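import Vale.Agent.P233.Bd3.B4
import Vale.Agent.P233.Bd3.B5

/-! P233, B6: time derivative of `S(t) = ∫ ρ Hess θ(∇h,∇h)`. -/

set_option linter.all false

open MeasureTheory Filter Topology Set
open scoped ENNReal NNReal

namespace Vale.Agent.P233.H133

variable {M : Type*} [MeasurableSpace M] {m : Measure M} {C : Calc m}

/-- weak form of `∫ w Hess F(∇h,∇h)` -/
noncomputable def wh (C : Calc m) (F h w : M →ₘ[m] ℝ) : ℝ :=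
  -I (C.Γ F h * (w * C.lap h + C.Γ h w)) - 2⁻¹ * I (w * C.Γ F (C.Γ h h))

/-- weak form of `∫ Hess F(∇h,∇h)` -/
noncomputable def wh1 (C : Calc m) (F h : M →ₘ[m] ℝ) : ℝ :=
  -I (C.Γ F h * C.lap h) - 2⁻¹ * I (C.Γ F (C.Γ h h))

section static

variable (hC : IsGamma C) {κ : ℝ} (hB : C.BEi κ)
variable {F F' b f g h k w θ : M →ₘ[m] ℝ}

theorem hess_hh : C.hess θ h h = C.Γ h (C.Γ θ h) - (2 : ℝ)⁻¹ • C.Γ θ (C.Γ h h) := by
  unfold Calc.hess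
  rw [← two_smul ℝ (C.Γ h (C.Γ θ h)), smul_sub, smul_smul]
  norm_num

include hC hB

/-- integration by parts: the weak form of the Hessian of a test function -/
theorem I_hess_mul (hθ : θ ∈ C.Test) (hh : h ∈ C.Test) (hw : w ∈ C.A) :
    I (w * C.hess θ h h) = wh C θ h w := by
  have hk : C.Γ θ h ∈ C.A := hC.Γ_mem hB hθ hh
  have hhh : C.Γ h h ∈ C.A := hC.Γ_mem hB hh hh
  have h1 := hC.ibp' hh hw hk
  have m1 : MemLp (w * C.Γ h (C.Γ θ h) : M →ₘ[m] ℝ) 1 m :=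
    mem_mul_top hw.2 (hC.Γ_mem1 (hC.tW hh) hk.1)
  have m2 : MemLp (w * C.Γ θ (C.Γ h h) : M →ₘ[m] ℝ) 1 m :=
    mem_mul_top hw.2 (hC.Γ_mem1 (hC.tW hθ) hhh.1)
  have m3 : MemLp (C.Γ θ h * C.Γ h w : M →ₘ[m] ℝ) 1 m :=
    mem_mul_top hk.2 (hC.Γ_mem1 (hC.tW hh) hw.1)
  have m4 : MemLp (w * C.Γ θ h * C.lap h : M →ₘ[m] ℝ) 1 m :=
    mem_mul_22 (mem_mul_top hw.2 (hC.memLp _ hk.1)) (hC.lap2 hh)
  have e1 : w * C.hess θ h h = w * C.Γ h (C.Γ θ h) - (2 : ℝ)⁻¹ • (w * C.Γ θ (C.Γ h h)) := by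
    rw [hess_hh, mul_sub, mul_smul_comm]
  have e2 : C.Γ θ h * (w * C.lap h + C.Γ h w) = w * C.Γ θ h * C.lap h + C.Γ θ h * C.Γ h w := by
    ring
  rw [I_add (mem_add m1 m3) m4, I_add m1 m3] at h1
  rw [e1, I_sub m1 (mem_smul _ m2), I_smul]
  unfold wh
  rw [e2, I_add m4 m3]
  linarith only [h1]

theorem I_hess_one (hθ : θ ∈ C.Test) (hh : h ∈ C.Test) :
    I (C.hess θ h h) = wh1 C θ h := by
  have hk : C.Γ θ h ∈ C.A := hC.Γ_mem hB hθ hh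
  have hhh : C.Γ h h ∈ C.A := hC.Γ_mem hB hh hh
  have m1 : MemLp (C.Γ h (C.Γ θ h)) 1 m := hC.Γ_mem1 (hC.tW hh) hk.1
  have m2 : MemLp (C.Γ θ (C.Γ h h)) 1 m := hC.Γ_mem1 (hC.tW hθ) hhh.1
  rw [hess_hh, I_sub m1 (mem_smul _ m2), I_smul, hC.ibp hh hk.1]
  unfold wh1
  rw [mul_comm (C.lap h)]

omit hB in
/-- membership for the weak forms -/
theorem wh_mem (hB : C.BEi κ) (hF : F ∈ C.W) (hh : h ∈ C.TestI) (hw : w ∈ C.A) :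
    MemLp (C.Γ F h * (w * C.lap h + C.Γ h w) : M →ₘ[m] ℝ) 1 m ∧
    MemLp (w * C.Γ F (C.Γ h h) : M →ₘ[m] ℝ) 1 m ∧
    MemLp (C.Γ F h * C.lap h : M →ₘ[m] ℝ) 1 m ∧ MemLp (C.Γ F (C.Γ h h)) 1 m := by
  have hhh : C.Γ h h ∈ C.A := hC.Γ_mem hB hh.1 hh.1
  have t1 : MemLp (C.Γ F h) 2 m := by
    rw [hC.symm _ hF _ (hC.tW hh.1)]
    exact hC.Γ_mem2 (hC.tW hh.1) (hC.test_Γ_top hh.1) hF
  have t2 : MemLp (C.Γ h w) 2 m := hC.Γ_mem2 (hC.tW hh.1) (hC.test_Γ_top hh.1) hw.1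
  exact ⟨mem_mul_22 t1 (mem_add (mem_mul_top hw.2 (hC.lap2 hh.1)) t2),
    mem_mul_top hw.2 (hC.Γ_mem1 hF hhh.1), mem_mul_22 t1 (hC.lap2 hh.1), hC.Γ_mem1 hF hhh.1⟩

theorem wh_sub (hF : F ∈ C.W) (hF' : F' ∈ C.W) (hh : h ∈ C.TestI) (hw : w ∈ C.A) :
    wh C (F - F') h w = wh C F h w - wh C F' h w := by
  have hhh : C.Γ h h ∈ C.A := hC.Γ_mem hB hh.1 hh.1
  obtain ⟨a1, a2, -, -⟩ := wh_mem hC hB hF hh hw
  obtain ⟨b1, b2, -, -⟩ := wh_mem hC hB hF' hh hw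
  unfold wh
  rw [hC.Γ_sub_left hF hF' (hC.tW hh.1), hC.Γ_sub_left hF hF' hhh.1, sub_mul, mul_sub,
    I_sub a1 b1, I_sub a2 b2]
  ring

theorem wh1_sub (hF : F ∈ C.W) (hF' : F' ∈ C.W) (hh : h ∈ C.TestI) :
    wh1 C (F - F') h = wh1 C F h - wh1 C F' h := by
  have hhh : C.Γ h h ∈ C.A := hC.Γ_mem hB hh.1 hh.1
  obtain ⟨-, -, a1, a2⟩ := wh_mem hC hB hF hh hC.A_zero
  obtain ⟨-, -, b1, b2⟩ := wh_mem hC hB hF' hh hC.A_zero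
  unfold wh1
  rw [hC.Γ_sub_left hF hF' (hC.tW hh.1), hC.Γ_sub_left hF hF' hhh.1, sub_mul,
    I_sub a1 b1, I_sub a2 b2]
  ring

theorem wh_smul (c : ℝ) (hF : F ∈ C.W) (hh : h ∈ C.TestI) :
    wh C (c • F) h w = c * wh C F h w := by
  have hhh : C.Γ h h ∈ C.A := hC.Γ_mem hB hh.1 hh.1
  unfold wh
  rw [hC.smul_left c _ hF _ (hC.tW hh.1), hC.smul_left c _ hF _ hhh.1, smul_mul_assoc,
    mul_smul_comm, I_smul, I_smul]
  ring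

theorem wh1_smul (c : ℝ) (hF : F ∈ C.W) (hh : h ∈ C.TestI) :
    wh1 C (c • F) h = c * wh1 C F h := by
  have hhh : C.Γ h h ∈ C.A := hC.Γ_mem hB hh.1 hh.1
  unfold wh1
  rw [hC.smul_left c _ hF _ (hC.tW hh.1), hC.smul_left c _ hF _ hhh.1, smul_mul_assoc,
    I_smul, I_smul]
  ring

theorem TW_T2Γ {X : ℕ → M →ₘ[m] ℝ} {x : M →ₘ[m] ℝ} (hX : C.TW X x) (hh : h ∈ C.Test) :
    T2 (fun n => C.Γ h (X n)) (C.Γ h x) := by
  obtain ⟨K, hK⟩ := mem_top_iff.1 (hC.test_Γ_top hh)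
  refine ⟨fun n => hC.Γ_mem2 (hC.tW hh) (hC.test_Γ_top hh) (hX.mem n),
    hC.Γ_mem2 (hC.tW hh) (hC.test_Γ_top hh) hX.mem', ?_⟩
  have h1 := (hC.TW_E hX).const_mul |K|
  rw [mul_zero] at h1
  refine squeeze_zero (fun n => I_sq_nonneg _) (fun n => ?_) h1
  rw [← hC.Γ_sub_right (hC.tW hh) (hX.mem n) hX.mem']
  exact hC.I_Γsq_le hB hh (hC.sub_mem (hX.mem n) hX.mem') (by
    filter_upwards [hK] with x hx using (le_abs_self _).trans hx)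

/-- continuity of the weak form -/
theorem tendsto_wh {D r : ℕ → M →ₘ[m] ℝ} (hD : C.TW D F) (hr : C.TW r w) (hrb : Tb r w)
    (hh : h ∈ C.TestI) : Tendsto (fun n => wh C (D n) h (r n)) atTop (𝓝 (wh C F h w)) := by
  have hhh : C.Γ h h ∈ C.A := hC.Γ_mem hB hh.1 hh.1
  have h1 : T2 (fun n => C.Γ (D n) h) (C.Γ F h) := by
    have := TW_T2Γ hC hB hD hh.1
    have e : ∀ n, C.Γ (D n) h = C.Γ h (D n) := fun n => hC.symm _ (hD.mem n) _ (hC.tW hh.1)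
    simp_rw [e]
    rw [hC.symm _ hD.mem' _ (hC.tW hh.1)]
    exact this
  have h2 : T2 (fun n => r n * C.lap h) (w * C.lap h) := hrb.mul (T2.const (hC.lap2 hh.1))
  have h3 : T2 (fun n => C.Γ h (r n)) (C.Γ h w) := TW_T2Γ hC hB hr hh.1
  have h4 := hC.TW_Γ hrb hD (hC.TW_const hhh.1)
  have h5 := h1.mul_lim (h2.add h3)
  unfold wh
  exact h5.neg.sub (h4.const_mul _)

theorem tendsto_wh1 {D : ℕ → M →ₘ[m] ℝ} (hD : C.TW D F)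
    (hh : h ∈ C.TestI) : Tendsto (fun n => wh1 C (D n) h) atTop (𝓝 (wh1 C F h)) := by
  have hhh : C.Γ h h ∈ C.A := hC.Γ_mem hB hh.1 hh.1
  have h1 : T2 (fun n => C.Γ (D n) h) (C.Γ F h) := by
    have := TW_T2Γ hC hB hD hh.1
    have e : ∀ n, C.Γ (D n) h = C.Γ h (D n) := fun n => hC.symm _ (hD.mem n) _ (hC.tW hh.1)
    simp_rw [e]
    rw [hC.symm _ hD.mem' _ (hC.tW hh.1)]
    exact this
  have h4 := hC.TW_Γ (Tb.const mem_top_one) hD (hC.TW_const hhh.1)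
  simp only [one_mul] at h4
  have h5 := h1.mul_lim (T2.const (hC.lap2 hh.1))
  unfold wh1
  exact h5.neg.sub (h4.const_mul _)

end static

section time

variable (hC : IsGamma C) {κ : ℝ} (hB : C.BEi κ)
variable {h θ' r' : M →ₘ[m] ℝ} {θ r : ℝ → M →ₘ[m] ℝ} {A : Set ℝ} {s : ℝ}

/-- `S(t) = ∫ (1 + r) Hess θ(∇h,∇h)` -/
noncomputable def Sf (C : Calc m) (h : M →ₘ[m] ℝ) (θ r : M →ₘ[m] ℝ) : ℝ :=
  I ((1 + r) * C.hess θ h h)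

include hC hB

theorem Sf_eq {θ r : M →ₘ[m] ℝ} (hθ : θ ∈ C.Test) (hh : h ∈ C.Test) (hr : r ∈ C.A) :
    Sf C h θ r = wh1 C θ h + wh C θ h r := by
  have hk : C.Γ θ h ∈ C.A := hC.Γ_mem hB hθ hh
  have hhh : C.Γ h h ∈ C.A := hC.Γ_mem hB hh hh
  have m1 : MemLp (C.hess θ h h) 1 m := by
    rw [hess_hh]
    exact mem_sub (hC.Γ_mem1 (hC.tW hh) hk.1) (mem_smul _ (hC.Γ_mem1 (hC.tW hθ) hhh.1))
  unfold Sf
  rw [add_mul, one_mul, I_add m1 (mem_mul_top hr.2 m1), I_hess_one hC hB hθ hh,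
    I_hess_mul hC hB hθ hh hr]

/-- the time derivative of `S` -/
theorem hasDeriv_Sf (hs : s ∈ A) (hh : h ∈ C.TestI)
    (hθ : ∀ t ∈ A, θ t ∈ C.Test) (hθ' : θ' ∈ C.W)
    (hθd : Tendsto (fun t => C.nrm2 ((t - s)⁻¹ • (θ t - θ s) - θ')) (𝓝[A \ {s}] s) (𝓝 0))
    (hr : ∀ t ∈ A, r t ∈ C.A) {K : ℝ} (hK : ∀ t ∈ A, ∀ᵐ x ∂m, |r t x| ≤ K)
    (hrc : Tendsto (fun t => C.nrm2 (r t - r s)) (𝓝[A \ {s}] s) (𝓝 0))
    (hr' : MemLp r' 2 m)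
    (hrd : Tendsto (fun t => I (((t - s)⁻¹ • (r t - r s) - r') ^ 2)) (𝓝[A \ {s}] s) (𝓝 0)) :
    HasDerivWithinAt (fun t => Sf C h (θ t) (r t))
      (wh1 C θ' h + wh C θ' h (r s) + I (r' * C.hess (θ s) h h)) A s := by
  rw [hasDerivWithinAt_iff_tendsto_slope]
  refine tendsto_of_subseq_tendsto fun ns hns => ?_
  have hnsA : ∀ᶠ n in atTop, ns n ∈ A \ {s} := hns.eventually self_mem_nhdsWithin
  obtain ⟨N, hN⟩ := eventually_atTop.1 hnsA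
  -- pass to a tail
  have hmem : ∀ n, ns (n + N) ∈ A \ {s} := fun n => hN _ (Nat.le_add_left _ _)
  have hns2 : Tendsto (fun n => ns (n + N)) atTop (𝓝[A \ {s}] s) :=
    hns.comp (tendsto_add_atTop_nat N)
  have hrW : ∀ t ∈ A, r t ∈ C.W := fun t ht => (hr t ht).1
  have l1 : Tendsto (fun n => I ((r (ns (n + N)) - r s) ^ 2)) atTop (𝓝 0) := by
    refine hC.tendsto_I_sq_of_nrm2 (fun n => hrW _ (hmem n).1) (hrW _ hs) (hrc.comp hns2)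
  obtain ⟨ms, hms, hae⟩ := exists_subseq_of_I_sq
    (fun n => hC.memLp _ (hrW _ (hmem n).1)) (hC.memLp _ (hrW _ hs)) l1
  refine ⟨fun n => ms n + N, ?_⟩
  have hms3 : Tendsto (fun n => ns (ms n + N)) atTop (𝓝[A \ {s}] s) :=
    hns2.comp hms.tendsto_atTop
  have hm3 : ∀ n, ns (ms n + N) ∈ A \ {s} := fun n => hmem (ms n)
  have hTWr : C.TW (fun n => r (ns (ms n + N))) (r s) :=
    ⟨fun n => hrW _ (hm3 n).1, hrW _ hs, hrc.comp hms3⟩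
  have hTb : Tb (fun n => r (ns (ms n + N))) (r s) := ⟨⟨K, fun n => hK _ (hm3 n).1⟩, hae⟩
  have hTWθ : C.TW (fun n => (ns (ms n + N) - s)⁻¹ • (θ (ns (ms n + N)) - θ s)) θ' := by
    refine ⟨fun n => hC.smul_mem _ _ (hC.sub_mem (hC.tW (hθ _ (hm3 n).1)) (hC.tW (hθ _ hs))),
      hθ', hθd.comp hms3⟩
  have q1 := tendsto_wh1 hC hB hTWθ hh
  have q2 := tendsto_wh hC hB hTWθ hTWr hTb hh
  have q3 : Tendsto (fun n => I (((ns (ms n + N) - s)⁻¹ • (r (ns (ms n + N)) - r s))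
      * C.hess (θ s) h h)) atTop (𝓝 (I (r' * C.hess (θ s) h h))) := by
    have t1 : T2 (fun n => (ns (ms n + N) - s)⁻¹ • (r (ns (ms n + N)) - r s)) r' :=
      ⟨fun n => mem_smul _ (mem_sub (hC.memLp _ (hrW _ (hm3 n).1)) (hC.memLp _ (hrW _ hs))),
        hr', hrd.comp hms3⟩
    exact t1.mul_lim (T2.const (hC.hess_mem2 hB (hθ _ hs) hh.1 hh.1))
  refine ((q1.add q2).add q3).congr fun n => ?_
  set t := ns (ms n + N) with ht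
  have htA := (hm3 n).1
  have hts : t - s ≠ 0 := sub_ne_zero.2 fun e => (hm3 n).2 (by simpa using e)
  rw [slope_def_field, Sf_eq hC hB (hθ _ htA) hh.1 (hr _ htA),
    Sf_eq hC hB (hθ _ hs) hh.1 (hr _ hs)]
  rw [wh1_smul hC hB _ (hC.sub_mem (hC.tW (hθ _ htA)) (hC.tW (hθ _ hs))) hh,
    wh_smul hC hB _ (hC.sub_mem (hC.tW (hθ _ htA)) (hC.tW (hθ _ hs))) hh,
    wh1_sub hC hB (hC.tW (hθ _ htA)) (hC.tW (hθ _ hs)) hh,
    wh_sub hC hB (hC.tW (hθ _ htA)) (hC.tW (hθ _ hs)) hh (hr _ htA), smul_mul_assoc, I_smul,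
    I_hess_mul hC hB (hθ _ hs) hh.1 (hC.A_sub (hr _ htA) (hr _ hs))]
  have e : wh C (θ s) h (r t - r s) = wh C (θ s) h (r t) - wh C (θ s) h (r s) := by
    rw [← I_hess_mul hC hB (hθ _ hs) hh.1 (hC.A_sub (hr _ htA) (hr _ hs)),
      ← I_hess_mul hC hB (hθ _ hs) hh.1 (hr _ htA), ← I_hess_mul hC hB (hθ _ hs) hh.1 (hr _ hs),
      sub_mul, I_sub]
    · exact mem_mul_22 (hC.memLp _ (hrW _ htA)) (hC.hess_mem2 hB (hθ _ hs) hh.1 hh.1)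
    · exact mem_mul_22 (hC.memLp _ (hrW _ hs)) (hC.hess_mem2 hB (hθ _ hs) hh.1 hh.1)
  rw [e]
  field_simp
  ring

end time

end Vale.Agent.P233.H133
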