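import Vale.Agent.P233.Gig.IfB
import Vale.Agent.P233.H53.Stat

/-! P233, part B, block B4: the fourth moment of `V = ∇L`, from B0r, B1 and B3. -/

set_option linter.all false

open MeasureTheory Filter Topology Set
open scoped ENNReal NNReal InnerProductSpace

universe u v

namespace Vale.Agent.P233.H133

open Vale.Agent.P233

theorem blk_B4_of (h0r : Blk_B0r.{u}) (h1 : Blk_B1.{u}) (h3 : Blk_B3.{u, v}) :
    Blk_B4.{u, v} := by
  intro K N s s' Λ hs hss' hs'1
  obtain ⟨c, hc⟩ := h3 K N s s' Λ hs hss' hs'1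
  refine ⟨8 * c, ?_⟩
  intro M _ m _ C E _ _ _ Gr U D hCt ε l φ u hL
  have hC := hCt.gam
  have hB : C.BEi K := hC.bei hCt.hN hCt.be
  have hD := hC.toIsDir
  obtain ⟨e, he, hec, hb⟩ := hc M m C E Gr U D hCt ε l φ u hL
  have hR := hL.reg
  obtain ⟨q1, -, -, -, -⟩ := h0r M m C K hC hB ε s 1 φ u hR
  obtain ⟨-, -, -, -, -, -, -, hV4, -, -⟩ := h1 M m C K hC hB ε s 1 φ u hR
  have hsub : Icc s' 1 ⊆ Icc s 1 := Icc_subset_Icc hss'.le le_rfl
  have hV4' : ContinuousOn (fun t => ε ^ 2 * C.EV4 ε φ u t) (Icc s' 1) :=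
    (hV4.mono hsub).const_smul (ε ^ 2)
  have hle : ∀ t ∈ Icc s' 1, ε ^ 2 * C.EV4 ε φ u t ≤ 8 * e t := by
    intro t ht
    obtain ⟨hLt, hθt, hrt, hrΓ, -⟩ := q1 t (hsub ht)
    have hb' := hb t ht
    have hw0 : 0 ≤ rh ε φ u t := by
      rw [nonneg_iff_ae]
      filter_upwards [AEEqFun.coeFn_comp Real.exp Real.continuous_exp (ε⁻¹ • (φ t - u t))]
        with x hx
      unfold rh ex
      rw [hx]
      exact (Real.exp_pos _).le
    have ew : 1 + (rh ε φ u t - 1) = rh ε φ u t := by ring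
    have hLT := hLt.1
    have hDm := hCt.hd.mem _ hLT
    have hDb : ∀ᵐ x ∂m, |C.hess (LL ε φ u t) (LL ε φ u t) (LL ε φ u t) x| ≤
        D (LL ε φ u t) x * C.Γ (LL ε φ u t) (LL ε φ u t) x := by
      filter_upwards [hCt.hd.hess _ hLT _ hLT _ hLT, hD.Γ_nonneg_ae (hC.test_A hLT).1]
        with x hx h0
      rw [mul_assoc, Real.mul_self_sqrt h0] at hx
      exact hx
    have key := hC.quartic hB hLT (hC.test_A hrt.1) (by rw [ew]; exact hw0)
      (by rw [ew]; exact hrΓ) hDm hDb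
    rw [ew] at key
    have hθ0 : 0 ≤ I (rh ε φ u t * D (th φ u t) ^ 2) := by
      apply I_nonneg
      rw [nonneg_iff_ae]
      filter_upwards [mul_ae (rh ε φ u t) (D (th φ u t) ^ 2), sq_ae (D (th φ u t)),
        nonneg_iff_ae.1 hw0] with x a1 a2 a3
      rw [a1, a2]
      exact mul_nonneg a3 (sq_nonneg _)
    have hD0 : 0 ≤ I (rh ε φ u t * D (LL ε φ u t) ^ 2) := by
      apply I_nonneg
      rw [nonneg_iff_ae]
      filter_upwards [mul_ae (rh ε φ u t) (D (LL ε φ u t) ^ 2), sq_ae (D (LL ε φ u t)),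
        nonneg_iff_ae.1 hw0] with x a1 a2 a3
      rw [a1, a2]
      exact mul_nonneg a3 (sq_nonneg _)
    have hl0 : 0 ≤ I (rh ε φ u t * C.lap (LL ε φ u t) ^ 2) := by
      apply I_nonneg
      rw [nonneg_iff_ae]
      filter_upwards [mul_ae (rh ε φ u t) (C.lap (LL ε φ u t) ^ 2), sq_ae (C.lap (LL ε φ u t)),
        nonneg_iff_ae.1 hw0] with x a1 a2 a3
      rw [a1, a2]
      exact mul_nonneg a3 (sq_nonneg _)
    have hε2 : 0 ≤ ε ^ 2 := sq_nonneg _
    unfold Calc.EV4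
    have k2 := mul_le_mul_of_nonneg_left key hε2
    have k3 := mul_nonneg hε2 hl0
    nlinarith [k2, k3]
  calc ∫ t in s'..1, ε ^ 2 * C.EV4 ε φ u t ≤ ∫ t in s'..1, 8 * e t := by
        apply intervalIntegral.integral_mono_on hs'1.le
        · apply ContinuousOn.intervalIntegrable
          rw [uIcc_of_le hs'1.le]; exact hV4'
        · apply ContinuousOn.intervalIntegrable
          rw [uIcc_of_le hs'1.le]; exact he.const_smul (8 : ℝ)
        · exact hle
    _ = 8 * ∫ t in s'..1, e t := by rw [intervalIntegral.integral_const_mul]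
    _ ≤ 8 * c := by linarith

end Vale.Agent.P233.H133
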