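import Vale.Agent.P233.Gig.IfB

/-! P233, part B: sequences of times for a regular pair (`Calc.Reg`): everything converges in the
strong sense `Cv` of the library along a subsequence. -/

set_option linter.all false

open MeasureTheory Filter Topology Set
open scoped ENNReal NNReal InnerProductSpace

universe u v

namespace Vale.Agent.P233.H133

variable {M : Type u} [MeasurableSpace M] {m : Measure M} {C : Calc m}

section ctw

variable {J : Set ℝ} {t : ℝ} {f g : ℝ → M →ₘ[m] ℝ} {f' : M →ₘ[m] ℝ}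

theorem nrm2_smul (hC : IsDir C) (c : ℝ) {x : M →ₘ[m] ℝ} (hx : x ∈ C.W) :
    C.nrm2 (c • x) = c ^ 2 * C.nrm2 x := by
  unfold Calc.nrm2
  rw [hC.E_smul c hx, smul_pow, I_smul]
  ring

theorem nrm2_zero (hC : IsDir C) : C.nrm2 (0 : M →ₘ[m] ℝ) = 0 := by
  have h := nrm2_smul hC 0 hC.zero_mem
  rw [smul_zero] at h
  rw [h]; ring

/-- differentiable in `W` implies continuous in `W` -/
theorem ctW_of_derW (hC : IsDir C) (ht : t ∈ J) (hf : ∀ s ∈ J, f s ∈ C.W) (hf' : f' ∈ C.W)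
    (h : C.DerW J f f' t) : C.CtW J f t := by
  have h0 : C.nrm2 (f t - f t) = 0 := by rw [sub_self]; exact nrm2_zero hC
  have key : Tendsto (fun s => C.nrm2 (f s - f t)) (𝓝[J \ {t}] t) (𝓝 0) := by
    have h1 : Tendsto (fun s : ℝ => (s - t) ^ 2 *
        (2 * C.nrm2 ((s - t)⁻¹ • (f s - f t) - f') + 2 * C.nrm2 f')) (𝓝[J \ {t}] t) (𝓝 0) := by
      have a1 : Tendsto (fun s : ℝ => (s - t) ^ 2) (𝓝[J \ {t}] t) (𝓝 0) := by
        have : Continuous fun s : ℝ => (s - t) ^ 2 := by fun_prop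
        have h2 := this.tendsto t
        simp only [sub_self, ne_eq, OfNat.ofNat_ne_zero, not_false_eq_true, zero_pow] at h2
        exact h2.mono_left nhdsWithin_le_nhds
      have a2 := (h.const_mul 2).add_const (2 * C.nrm2 f')
      have a3 := a1.mul a2
      rw [zero_mul] at a3
      exact a3
    refine tendsto_of_tendsto_of_tendsto_of_le_of_le' tendsto_const_nhds h1 ?_ ?_
    · filter_upwards [self_mem_nhdsWithin] with s hs
      exact hC.nrm2_nonneg (hC.sub_mem (hf s hs.1) (hf t ht))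
    · filter_upwards [self_mem_nhdsWithin] with s hs
      have hst : s - t ≠ 0 := sub_ne_zero.2 fun e => hs.2 (by simpa using e)
      have hm : (s - t)⁻¹ • (f s - f t) ∈ C.W := hC.smul_mem _ _ (hC.sub_mem (hf s hs.1) (hf t ht))
      have e : f s - f t = (s - t) • (((s - t)⁻¹ • (f s - f t) - f') + f') := by
        rw [sub_add_cancel, smul_smul, mul_inv_cancel₀ hst, one_smul]
      calc C.nrm2 (f s - f t) = (s - t) ^ 2 *
            C.nrm2 (((s - t)⁻¹ • (f s - f t) - f') + f') := by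
              conv_lhs => rw [e]
              exact nrm2_smul hC _ (hC.add_mem _ (hC.sub_mem hm hf') _ hf')
        _ ≤ _ := mul_le_mul_of_nonneg_left (hC.nrm2_add_le (hC.sub_mem hm hf') hf') (sq_nonneg _)
  have h2 : ContinuousWithinAt (fun s => C.nrm2 (f s - f t)) (J \ {t}) t := by
    show Tendsto _ _ (𝓝 (C.nrm2 (f t - f t)))
    rw [h0]; exact key
  have h3 := (continuousWithinAt_diff_self).1 h2
  have h4 : Tendsto (fun s => C.nrm2 (f s - f t)) (𝓝[J] t) (𝓝 (C.nrm2 (f t - f t))) := h3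
  rw [h0] at h4
  exact h4

theorem ctW_lin (hC : IsDir C) (ht : t ∈ J) (hf : ∀ s ∈ J, f s ∈ C.W) (hg : ∀ s ∈ J, g s ∈ C.W)
    (c d : ℝ) (h1 : C.CtW J f t) (h2 : C.CtW J g t) :
    C.CtW J (fun s => c • f s + d • g s) t := by
  have h3 : Tendsto (fun s => 2 * (c ^ 2 * C.nrm2 (f s - f t)) + 2 * (d ^ 2 * C.nrm2 (g s - g t)))
      (𝓝[J] t) (𝓝 0) := by
    simpa using ((h1.const_mul (c ^ 2)).const_mul 2).add ((h2.const_mul (d ^ 2)).const_mul 2)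
  refine tendsto_of_tendsto_of_tendsto_of_le_of_le' tendsto_const_nhds h3 ?_ ?_
  · filter_upwards [self_mem_nhdsWithin] with s hs
    exact hC.nrm2_nonneg (hC.sub_mem (hC.add_mem _ (hC.smul_mem _ _ (hf s hs)) _
      (hC.smul_mem _ _ (hg s hs))) (hC.add_mem _ (hC.smul_mem _ _ (hf t ht)) _
      (hC.smul_mem _ _ (hg t ht))))
  · filter_upwards [self_mem_nhdsWithin] with s hs
    have e : c • f s + d • g s - (c • f t + d • g t) = c • (f s - f t) + d • (g s - g t) := by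
      rw [smul_sub, smul_sub]; abel
    rw [e]
    refine (hC.nrm2_add_le (hC.smul_mem _ _ (hC.sub_mem (hf s hs) (hf t ht)))
      (hC.smul_mem _ _ (hC.sub_mem (hg s hs) (hg t ht)))).trans (le_of_eq ?_)
    rw [nrm2_smul hC _ (hC.sub_mem (hf s hs) (hf t ht)),
      nrm2_smul hC _ (hC.sub_mem (hg s hs) (hg t ht))]

end ctw

section seq

variable (hC : IsGamma C) {K : ℝ} (hB : C.BEi K) {ε a b : ℝ} {φ u : ℝ → M →ₘ[m] ℝ}

theorem th_eq (t : ℝ) : th φ u t = (2 : ℝ)⁻¹ • φ t + (2 : ℝ)⁻¹ • u t := by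
  unfold th; rw [smul_add]

theorem LL_eq (t : ℝ) : LL ε φ u t = ε⁻¹ • φ t + (-ε⁻¹) • u t := by
  unfold LL; rw [smul_sub, neg_smul]; abel

include hC hB

theorem lin_testI {f g : M →ₘ[m] ℝ} (hf : f ∈ C.TestI) (hg : g ∈ C.TestI) (c d : ℝ) :
    c • f + d • g ∈ C.TestI :=
  hC.testI_add hB (hC.testI_smul hB c hf) (hC.testI_smul hB d hg)

theorem lap_lin {f g : M →ₘ[m] ℝ} (hf : f ∈ C.Test) (hg : g ∈ C.Test) (c d : ℝ) :
    C.lap (c • f + d • g) = c • C.lap f + d • C.lap g := by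
  rw [hC.lap_add hB (hC.test_smul hB c hf) (hC.test_smul hB d hg), hC.lap_smul hB c hf,
    hC.lap_smul hB d hg]

/-- `Γ` of a linear combination is bounded -/
theorem Γ_lin_le {f g : M →ₘ[m] ℝ} (hf : f ∈ C.W) (hg : g ∈ C.W) (c d : ℝ) {B : ℝ}
    (h1 : ∀ᵐ x ∂m, C.Γ f f x ≤ B) (h2 : ∀ᵐ x ∂m, C.Γ g g x ≤ B) :
    ∀ᵐ x ∂m, C.Γ (c • f + d • g) (c • f + d • g) x ≤ 2 * (c ^ 2 + d ^ 2) * B := by
  have h3 := hC.nonneg _ (hC.sub_mem (hC.smul_mem c _ hf) (hC.smul_mem d _ hg))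
  have e : C.Γ (c • f + d • g) (c • f + d • g) + C.Γ (c • f - d • g) (c • f - d • g)
      = (2 * c ^ 2) • C.Γ f f + (2 * d ^ 2) • C.Γ g g := by
    have hcf := hC.smul_mem c _ hf
    have hdg := hC.smul_mem d _ hg
    rw [hC.add_left _ hcf _ hdg _ (hC.add_mem _ hcf _ hdg), hC.Γ_add_right hcf hcf hdg,
      hC.Γ_add_right hdg hcf hdg, hC.Γ_sub_left hcf hdg (hC.sub_mem hcf hdg),
      hC.Γ_sub_right hcf hcf hdg, hC.Γ_sub_right hdg hcf hdg,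
      hC.smul_left c _ hf _ hcf, hC.smul_left d _ hg _ hdg,
      hC.Γ_smul_right c hf hf, hC.Γ_smul_right d hg hg, smul_smul, smul_smul]
    have q : ∀ X Y Z W : M →ₘ[m] ℝ, (c * c) • X + Y + (Z + (d * d) • W)
        + ((c * c) • X - Y - (Z - (d * d) • W)) = (2 * c ^ 2) • X + (2 * d ^ 2) • W := by
      intro X Y Z W
      have : (2 * c ^ 2) • X + (2 * d ^ 2) • W
        = ((c * c) • X + (c * c) • X) + ((d * d) • W + (d * d) • W) := by
        rw [← add_smul, ← add_smul]; congr 2 <;> ring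
      rw [this]; abel
    exact q _ _ _ _
  rw [eq_iff_ae] at e
  filter_upwards [e, nonneg_iff_ae.1 h3, h1, h2,
    add_ae (C.Γ (c • f + d • g) (c • f + d • g)) (C.Γ (c • f - d • g) (c • f - d • g)),
    add_ae ((2 * c ^ 2) • C.Γ f f) ((2 * d ^ 2) • C.Γ g g), smul_ae (C.Γ f f) (2 * c ^ 2),
    smul_ae (C.Γ g g) (2 * d ^ 2)] with x a1 a2 a3 a4 a5 a6 a7 a8
  rw [a5, a6, a7, a8] at a1
  nlinarith [mul_le_mul_of_nonneg_left a3 (by positivity : (0:ℝ) ≤ 2 * c ^ 2),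
    mul_le_mul_of_nonneg_left a4 (by positivity : (0:ℝ) ≤ 2 * d ^ 2)]

/-- `Cw` for a linear combination of the potentials -/
theorem reg_Cw (hR : C.Reg ε a b φ u) (c d : ℝ) {t : ℝ} (ht : t ∈ Icc a b) {ns : ℕ → ℝ}
    (hns : Tendsto ns atTop (𝓝[Icc a b] t)) (hmem : ∀ n, ns n ∈ Icc a b) :
    C.Cw (fun n => c • φ (ns n) + d • u (ns n)) (c • φ t + d • u t) ∧
    C.TW (fun n => C.lap (c • φ (ns n) + d • u (ns n))) (C.lap (c • φ t + d • u t)) := by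
  have hD := hC.toIsDir
  have hφ : ∀ s ∈ Icc a b, φ s ∈ C.W := fun s hs => hC.tW (hR.φ_mem s hs).1
  have hu : ∀ s ∈ Icc a b, u s ∈ C.W := fun s hs => hC.tW (hR.u_mem s hs).1
  have hlφ : ∀ s ∈ Icc a b, C.lap (φ s) ∈ C.W := fun s hs => hC.test_lap_mem (hR.φ_mem s hs).1
  have hlu : ∀ s ∈ Icc a b, C.lap (u s) ∈ C.W := fun s hs => hC.test_lap_mem (hR.u_mem s hs).1
  have hΓφ : ∀ s ∈ Icc a b, C.Γ (φ s) (φ s) ∈ C.W := fun s hs =>
    (hC.Γ_mem hB (hR.φ_mem s hs).1 (hR.φ_mem s hs).1).1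
  have hΓu : ∀ s ∈ Icc a b, C.Γ (u s) (u s) ∈ C.W := fun s hs =>
    (hC.Γ_mem hB (hR.u_mem s hs).1 (hR.u_mem s hs).1).1
  have c1 : C.CtW (Icc a b) φ t := ctW_of_derW hD ht hφ (by
    exact hD.sub_mem (hD.neg_mem (hC.smul_mem _ _ (hlφ t ht))) (hC.smul_mem _ _ (hΓφ t ht)))
    (hR.dφ t ht)
  have c2 : C.CtW (Icc a b) u t := ctW_of_derW hD ht hu (by
    exact hD.sub_mem (hC.smul_mem _ _ (hlu t ht)) (hC.smul_mem _ _ (hΓu t ht))) (hR.du t ht)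
  have c3 := ctW_lin hD ht hφ hu c d c1 c2
  have c4 := ctW_lin hD ht hlφ hlu c d (hR.cφ t ht) (hR.cu t ht)
  obtain ⟨B, hBd⟩ := hR.bdd
  have e : ∀ s ∈ Icc a b, C.lap (c • φ s + d • u s) = c • C.lap (φ s) + d • C.lap (u s) :=
    fun s hs => lap_lin hC hB (hR.φ_mem s hs).1 (hR.u_mem s hs).1 c d
  have hT : ∀ s ∈ Icc a b, c • φ s + d • u s ∈ C.Test := fun s hs =>
    (lin_testI hC hB (hR.φ_mem s hs) (hR.u_mem s hs) c d).1
  have c5 : C.TW (fun n => C.lap (c • φ (ns n) + d • u (ns n))) (C.lap (c • φ t + d • u t)) := by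
    refine ⟨fun n => hC.test_lap_mem (hT _ (hmem n)), hC.test_lap_mem (hT _ ht), ?_⟩
    have := c4.comp hns
    refine this.congr fun n => ?_
    simp only [Function.comp_apply]
    rw [e _ (hmem n), e _ ht]
  refine ⟨⟨fun n => hT _ (hmem n), hT _ ht, c3.comp hns, ?_, 2 * (c ^ 2 + d ^ 2) * B, fun n => ?_⟩,
    c5⟩
  · exact (hD.TW_T2 c5).lim
  · refine Γ_lin_le hC hB (hφ _ (hmem n)) (hu _ (hmem n)) c d ?_ ?_
    · filter_upwards [hBd _ (hmem n)] with x hx using hx.2.2.1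
    · filter_upwards [hBd _ (hmem n)] with x hx using hx.2.2.2.1

/-- convergence of everything along a subsequence -/
structure SeqC (C : Calc m) (ε : ℝ) (φ u : ℝ → M →ₘ[m] ℝ) (t : ℝ) (ns : ℕ → ℝ) : Prop where
  th : C.Cv (fun n => th φ u (ns n)) (th φ u t)
  LL : C.Cv (fun n => LL ε φ u (ns n)) (LL ε φ u t)
  r : C.Cv (fun n => rh ε φ u (ns n) - 1) (rh ε φ u t - 1)
  rb : Tb (fun n => rh ε φ u (ns n) - 1) (rh ε φ u t - 1)
  rhb : Tb (fun n => rh ε φ u (ns n)) (rh ε φ u t)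
  lth : C.TW (fun n => C.lap (Vale.Agent.P233.th φ u (ns n))) (C.lap (Vale.Agent.P233.th φ u t))
  lLL : C.TW (fun n => C.lap (Vale.Agent.P233.LL ε φ u (ns n)))
    (C.lap (Vale.Agent.P233.LL ε φ u t))

/-- the output of `Blk_B0r` for one pair -/
def B0rOut (C : Calc m) (ε a b : ℝ) (φ u : ℝ → M →ₘ[m] ℝ) : Prop :=
    (∀ t ∈ Icc a b, Vale.Agent.P233.LL ε φ u t ∈ C.TestI ∧ Vale.Agent.P233.th φ u t ∈ C.TestI ∧
      rh ε φ u t - 1 ∈ C.TestI ∧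
      (∀ g ∈ C.W, C.Γ (rh ε φ u t - 1) g = rh ε φ u t * C.Γ (Vale.Agent.P233.LL ε φ u t) g) ∧
      C.lap (rh ε φ u t - 1) =
        rh ε φ u t * (C.lap (Vale.Agent.P233.LL ε φ u t)
          + C.Γ (Vale.Agent.P233.LL ε φ u t) (Vale.Agent.P233.LL ε φ u t))) ∧
    (∀ t ∈ Icc a b, C.DerW (Icc a b) (rh ε φ u)
      (-(rh ε φ u t * C.lap (Vale.Agent.P233.th φ u t)
        + C.Γ (Vale.Agent.P233.th φ u t) (rh ε φ u t - 1))) t) ∧
    (∀ t ∈ Icc a b, C.DerW (Icc a b) (Vale.Agent.P233.th φ u)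
      (-((2 : ℝ)⁻¹ • C.Γ (Vale.Agent.P233.th φ u t) (Vale.Agent.P233.th φ u t)) -
      (ε ^ 2 / 8) • ((2 : ℝ) • C.lap (Vale.Agent.P233.LL ε φ u t)
        + C.Γ (Vale.Agent.P233.LL ε φ u t) (Vale.Agent.P233.LL ε φ u t))) t) ∧
    (∀ t ∈ Icc a b, C.CtW (Icc a b) (fun s => C.lap (rh ε φ u s - 1)) t) ∧
    ∃ B : ℝ, ∀ t ∈ Icc a b, ∀ᵐ x ∂m, B⁻¹ ≤ rh ε φ u t x ∧ rh ε φ u t x ≤ B ∧
      C.Γ (rh ε φ u t - 1) (rh ε φ u t - 1) x ≤ B ∧ |C.lap (rh ε φ u t - 1) x| ≤ B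

theorem rh_mul_mem {r f : M →ₘ[m] ℝ} (hr : r - 1 ∈ C.TestI) (hf : f ∈ C.W) (hf' : MemLp f ∞ m) :
    r * f ∈ C.W := by
  have e : r * f = (r - 1) * f + f := by ring
  rw [e]
  exact hC.add_mem _ (hC.mul_mem_lip (hC.test_A hr.1) (hC.test_Γ_top hr.1) hf) _ hf

theorem rh_pos (h0 : B0rOut C ε a b φ u) : ∃ B : ℝ, 1 ≤ B ∧ ∀ t ∈ Icc a b,
    ∀ᵐ x ∂m, |rh ε φ u t x| ≤ B ∧ |(rh ε φ u t - 1 : M →ₘ[m] ℝ) x| ≤ B := by
  obtain ⟨-, -, -, -, B, hBd⟩ := h0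
  refine ⟨|B| + |B⁻¹| + 1, by linarith [abs_nonneg B, abs_nonneg B⁻¹], fun t ht => ?_⟩
  filter_upwards [hBd t ht, sub_ae (rh ε φ u t) 1, one_ae (M := M) (m := m)] with x a1 a2 a3
  rw [a2, a3]
  have h1 := neg_abs_le B⁻¹
  have h2 := le_abs_self B
  have h3 := abs_nonneg B
  have h4 := abs_nonneg B⁻¹
  constructor
  · rw [abs_le]; constructor <;> linarith [a1.1, a1.2.1]
  · rw [abs_le]; constructor <;> linarith [a1.1, a1.2.1]

theorem ctW_r (h0 : B0rOut C ε a b φ u) {t : ℝ} (ht : t ∈ Icc a b) :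
    C.CtW (Icc a b) (fun s => rh ε φ u s - 1) t := by
  obtain ⟨A1, A2, -, -, -⟩ := h0
  refine ctW_of_derW (f' := -(rh ε φ u t * C.lap (Vale.Agent.P233.th φ u t)
        + C.Γ (Vale.Agent.P233.th φ u t) (rh ε φ u t - 1))) hC.toIsDir ht
    (fun s hs => hC.tW (A1 s hs).2.2.1.1) ?_ ?_
  · have h1 := (A1 t ht).2.1
    have h2 := (A1 t ht).2.2.1
    exact hC.neg_mem (hC.add_mem _ (rh_mul_mem hC hB h2 (hC.test_lap_mem h1.1) h1.2) _
      (hC.Γ_mem hB h1.1 h2.1).1)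
  · have h1 := A2 t ht
    unfold Calc.DerW at h1 ⊢
    refine h1.congr fun s => ?_
    rw [sub_sub_sub_cancel_right]

theorem exists_seqC (hR : C.Reg ε a b φ u) (h0 : B0rOut C ε a b φ u) {t : ℝ} (ht : t ∈ Icc a b)
    {ns : ℕ → ℝ} (hns : Tendsto ns atTop (𝓝[Icc a b] t)) (hmem : ∀ n, ns n ∈ Icc a b) :
    ∃ ms : ℕ → ℕ, StrictMono ms ∧ SeqC C ε φ u t (fun n => ns (ms n)) := by
  have hD := hC.toIsDir
  have q1 := reg_Cw hC hB hR (2 : ℝ)⁻¹ (2 : ℝ)⁻¹ ht hns hmem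
  have q2 := reg_Cw hC hB hR ε⁻¹ (-ε⁻¹) ht hns hmem
  simp only [← th_eq] at q1
  simp only [← LL_eq] at q2
  have q3 := ctW_r hC hB h0 ht
  obtain ⟨B, hB1, hBd⟩ := rh_pos hC hB h0
  obtain ⟨A1, A2, A3, A4, B', hBd'⟩ := h0
  have hT : ∀ s ∈ Icc a b, rh ε φ u s - 1 ∈ C.Test := fun s hs => (A1 s hs).2.2.1.1
  have q4 : C.TW (fun n => C.lap (rh ε φ u (ns n) - 1)) (C.lap (rh ε φ u t - 1)) :=
    ⟨fun n => hC.test_lap_mem (hT _ (hmem n)), hC.test_lap_mem (hT _ ht), (A4 t ht).comp hns⟩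
  have q5 : C.Cw (fun n => rh ε φ u (ns n) - 1) (rh ε φ u t - 1) := by
    refine ⟨fun n => hT _ (hmem n), hT _ ht, q3.comp hns, (hD.TW_T2 q4).lim, B', fun n => ?_⟩
    filter_upwards [hBd' _ (hmem n)] with x hx using hx.2.2.1
  obtain ⟨ms, hms, c1, c2, c3, c4⟩ := hC.exists_common hB q1.1 q2.1 q5
    ⟨B, fun n => by filter_upwards [hBd _ (hmem n)] with x hx using hx.2⟩
  refine ⟨ms, hms, c1, c2, c3, c4, ?_, ?_, ?_⟩
  · refine ⟨⟨B, fun n => by filter_upwards [hBd _ (hmem (ms n))] with x hx using hx.1⟩, ?_⟩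
    have h1 : ∀ᵐ x ∂m, ∀ n, (rh ε φ u (ns (ms n)) - 1 : M →ₘ[m] ℝ) x
        = rh ε φ u (ns (ms n)) x - (1 : M →ₘ[m] ℝ) x :=
      ae_all_iff.2 fun n => sub_ae _ _
    filter_upwards [c4.lim, h1, sub_ae (rh ε φ u t) 1] with x a1 a2 a3
    rw [a3] at a1
    have a4 := a1.add_const ((1 : M →ₘ[m] ℝ) x)
    simp only [a2, sub_add_cancel] at a4
    exact a4
  · exact ⟨fun n => q1.2.mem _, q1.2.mem', q1.2.lim.comp hms.tendsto_atTop⟩
  · exact ⟨fun n => q2.2.mem _, q2.2.mem', q2.2.lim.comp hms.tendsto_atTop⟩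

/-- continuity of a function of time from sequences -/
theorem continuousOn_of_seqC (hR : C.Reg ε a b φ u) (h0 : B0rOut C ε a b φ u) {F : ℝ → ℝ}
    (hF : ∀ t ∈ Icc a b, ∀ ns : ℕ → ℝ, (∀ n, ns n ∈ Icc a b) → SeqC C ε φ u t ns →
      Tendsto (fun n => F (ns n)) atTop (𝓝 (F t))) : ContinuousOn F (Icc a b) := by
  intro t ht
  refine tendsto_of_subseq_tendsto fun ns hns => ?_
  obtain ⟨N, hN⟩ := eventually_atTop.1 (hns.eventually self_mem_nhdsWithin)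
  have hns2 : Tendsto (fun n => ns (n + N)) atTop (𝓝[Icc a b] t) :=
    hns.comp (tendsto_add_atTop_nat N)
  obtain ⟨ms, hms, hS⟩ := exists_seqC hC hB hR h0 ht hns2 fun n => hN _ (Nat.le_add_left _ _)
  exact ⟨fun n => ms n + N, hF t ht _ (fun n => hN _ (Nat.le_add_left _ _)) hS⟩

end seq

end Vale.Agent.P233.H133
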