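import Vale.Agent.P233.H133.B6dyn
import Vale.Agent.P233.H133.RegSeq

/-! P233, block B6t: the derivative of `S(t) = E Hess θ(∇h,∇h)`. -/

set_option linter.all false

open MeasureTheory Filter Topology Set
open scoped ENNReal NNReal InnerProductSpace

universe u v

namespace Vale.Agent.P233.H133

variable {M : Type u} [MeasurableSpace M] {m : Measure M} {C : Calc m}

theorem TW_lin (hC : IsDir C) {X Y : ℕ → M →ₘ[m] ℝ} {x y : M →ₘ[m] ℝ} (c d : ℝ)
    (h1 : C.TW X x) (h2 : C.TW Y y) : C.TW (fun n => c • X n + d • Y n) (c • x + d • y) := by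
  refine ⟨fun n => hC.add_mem _ (hC.smul_mem _ _ (h1.mem n)) _ (hC.smul_mem _ _ (h2.mem n)),
    hC.add_mem _ (hC.smul_mem _ _ h1.mem') _ (hC.smul_mem _ _ h2.mem'), ?_⟩
  have h3 : Tendsto (fun n => 2 * (c ^ 2 * C.nrm2 (X n - x)) + 2 * (d ^ 2 * C.nrm2 (Y n - y)))
      atTop (𝓝 0) := by
    simpa using ((h1.lim.const_mul (c ^ 2)).const_mul 2).add ((h2.lim.const_mul (d ^ 2)).const_mul 2)
  refine squeeze_zero (fun n => hC.nrm2_nonneg (hC.sub_mem (hC.add_mem _ (hC.smul_mem _ _ (h1.mem n)) _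
      (hC.smul_mem _ _ (h2.mem n))) (hC.add_mem _ (hC.smul_mem _ _ h1.mem') _
      (hC.smul_mem _ _ h2.mem')))) (fun n => ?_) h3
  have e : c • X n + d • Y n - (c • x + d • y) = c • (X n - x) + d • (Y n - y) := by
    rw [smul_sub, smul_sub]; abel
  rw [e]
  refine (hC.nrm2_add_le (hC.smul_mem _ _ (hC.sub_mem (h1.mem n) h1.mem'))
    (hC.smul_mem _ _ (hC.sub_mem (h2.mem n) h2.mem'))).trans (le_of_eq ?_)
  rw [nrm2_smul hC _ (hC.sub_mem (h1.mem n) h1.mem'), nrm2_smul hC _ (hC.sub_mem (h2.mem n) h2.mem')]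

section

variable (hC : IsGamma C) {K : ℝ} (hB : C.BEi K) {ε a b : ℝ} {φ u : ℝ → M →ₘ[m] ℝ}

/-- the time derivative of `θ` -/
noncomputable def dth (C : Calc m) (ε : ℝ) (φ u : ℝ → M →ₘ[m] ℝ) (t : ℝ) : M →ₘ[m] ℝ :=
  -((2 : ℝ)⁻¹ • C.Γ (th φ u t) (th φ u t)) -
      (ε ^ 2 / 8) • ((2 : ℝ) • C.lap (LL ε φ u t) + C.Γ (LL ε φ u t) (LL ε φ u t))

theorem dth_eq (t : ℝ) : dth C ε φ u t = (-(2 : ℝ)⁻¹) • C.Γ (th φ u t) (th φ u t) +
    (-(ε ^ 2 / 8)) • ((2 : ℝ) • C.lap (LL ε φ u t) + (1 : ℝ) • C.Γ (LL ε φ u t) (LL ε φ u t)) := by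
  unfold dth
  rw [one_smul, neg_smul, neg_smul, sub_eq_add_neg]

include hC hB

theorem wHc_eq {F h w : M →ₘ[m] ℝ} (hF : F ∈ C.W) (hh : h ∈ C.TestI) (hw : w - 1 ∈ C.A) :
    C.wHc F h w = wh1 C F h + wh C F h (w - 1) := by
  obtain ⟨a1, a2, a3, a4⟩ := wh_mem hC hB hF hh hw
  unfold Calc.wHc wh1 wh
  have e1 : C.Γ F h * (w * C.lap h + C.Γ h (w - 1))
      = C.Γ F h * C.lap h + C.Γ F h * ((w - 1) * C.lap h + C.Γ h (w - 1)) := by ring
  have e2 : w * C.Γ F (C.Γ h h) = C.Γ F (C.Γ h h) + (w - 1) * C.Γ F (C.Γ h h) := by ring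
  rw [e1, e2, I_add a3 a1, I_add a4 a2]
  ring

theorem dth_mem (h0 : B0rOut C ε a b φ u) {t : ℝ} (ht : t ∈ Icc a b) : dth C ε φ u t ∈ C.W := by
  have h1 := (h0.1 t ht).1
  have h2 := (h0.1 t ht).2.1
  rw [dth_eq]
  exact hC.add_mem _ (hC.smul_mem _ _ (hC.Γ_mem hB h2.1 h2.1).1) _ (hC.smul_mem _ _
    (hC.add_mem _ (hC.smul_mem _ _ (hC.test_lap_mem h1.1)) _
      (hC.smul_mem _ _ (hC.Γ_mem hB h1.1 h1.1).1)))

theorem S1_eq (h0 : B0rOut C ε a b φ u) {h : M →ₘ[m] ℝ} (hh : h ∈ C.TestI) {t : ℝ}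
    (ht : t ∈ Icc a b) :
    C.S1 ε φ u h t = wh1 C (dth C ε φ u t) h + wh C (dth C ε φ u t) h (rh ε φ u t - 1)
      + I (-(rh ε φ u t * C.lap (th φ u t) + C.Γ (th φ u t) (rh ε φ u t - 1))
        * C.hess (th φ u t) h h) := by
  have h3 := (h0.1 t ht).2.2.1
  unfold Calc.S1
  rw [← dth, wHc_eq hC hB (dth_mem hC hB h0 ht) hh (hC.test_A h3.1), neg_mul, I_neg,
    add_comm (C.Γ (th φ u t) (rh ε φ u t - 1))]
  ring

variable [SigmaFinite m]

theorem S1_cont (hR : C.Reg ε a b φ u) (h0 : B0rOut C ε a b φ u) {h : M →ₘ[m] ℝ}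
    (hh : h ∈ C.TestI) : ContinuousOn (C.S1 ε φ u h) (Icc a b) := by
  have hD := hC.toIsDir
  refine continuousOn_of_seqC hC hB hR h0 fun t ht ns hns hS => ?_
  have hch : C.Cv (fun _ : ℕ => h) h := by
    refine ⟨fun _ => hh.1, hh.1, ?_, ?_, ⟨0, fun n => ?_⟩, ?_⟩
    · simp only [sub_self]
      rw [nrm2_zero hD]
      exact tendsto_const_nhds
    · simp only [sub_self, ne_eq, OfNat.ofNat_ne_zero, not_false_eq_true, zero_pow, I_zero]
      exact tendsto_const_nhds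
    · rw [sub_self, hD.Γ_zero_left hD.zero_mem]
      filter_upwards [zero_ae (M := M) (m := m)] with x hx
      exact hx.le
    · simp only [sub_self]
      rw [hD.Γ_zero_left hD.zero_mem]
      filter_upwards [zero_ae (M := M) (m := m)] with x hx
      rw [hx]
      exact tendsto_const_nhds
  have t1 : C.TW (fun n => dth C ε φ u (ns n)) (dth C ε φ u t) := by
    simp only [dth_eq]
    exact TW_lin hD _ _ (hC.Cv_Γ hB hS.th hS.th)
      (TW_lin hD _ _ hS.lLL (hC.Cv_Γ hB hS.LL hS.LL))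
  have tr : C.TW (fun n => rh ε φ u (ns n) - 1) (rh ε φ u t - 1) := hC.Cv_TW hS.r
  have l1 := tendsto_wh1 hC hB t1 hh
  have l2 := tendsto_wh hC hB t1 tr hS.rb hh
  have l3 : T2 (fun n => C.hess (th φ u (ns n)) h h) (C.hess (th φ u t) h h) :=
    hC.Cv_hess hB hS.th hch hch
  have l4 : T2 (fun n => rh ε φ u (ns n) * C.lap (th φ u (ns n))
      + C.Γ (th φ u (ns n)) (rh ε φ u (ns n) - 1))
      (rh ε φ u t * C.lap (th φ u t) + C.Γ (th φ u t) (rh ε φ u t - 1)) :=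
    (hS.rhb.mul (hD.TW_T2 hS.lth)).add (hD.TW_T2 (hC.Cv_Γ hB hS.th hS.r))
  have l5 := l4.neg.mul_lim l3
  rw [S1_eq hC hB h0 hh ht]
  refine ((l1.add l2).add l5).congr fun n => ?_
  rw [S1_eq hC hB h0 hh (hns n)]

end

/-- **Block B6t** -/
theorem blk_B6t (h0r : Blk_B0r.{u}) : Blk_B6t.{u, v} := by
  intro M _ m _ C K E _ _ _ Gr U hC hB hG hU ε a b φ u hR h hh
  have h0 : B0rOut C ε a b φ u := h0r M m C K hC hB ε a b φ u hR
  have hD := hC.toIsDir
  obtain ⟨B, hB1, hBd⟩ := rh_pos hC hB h0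
  refine ⟨fun t ht => ?_, S1_cont hC hB hR h0 hh, fun κ => ?_⟩
  · have hT1 : ∀ s ∈ Icc a b, rh ε φ u s - 1 ∈ C.A := fun s hs => hC.test_A (h0.1 s hs).2.2.1.1
    have hr' : -(rh ε φ u t * C.lap (th φ u t) + C.Γ (th φ u t) (rh ε φ u t - 1)) ∈ C.W := by
      have h1 := (h0.1 t ht).2.1
      have h2 := (h0.1 t ht).2.2.1
      exact hC.neg_mem (hC.add_mem _ (rh_mul_mem hC hB h2 (hC.test_lap_mem h1.1) h1.2) _
        (hC.Γ_mem hB h1.1 h2.1).1)
    have hdr := h0.2.1 t ht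
    have key := hasDeriv_Sf (C := C) hC hB (h := h) (θ' := dth C ε φ u t)
      (r' := -(rh ε φ u t * C.lap (th φ u t) + C.Γ (th φ u t) (rh ε φ u t - 1)))
      (θ := th φ u) (r := fun s => rh ε φ u s - 1) (A := Icc a b) (s := t) ht hh
      (fun s hs => (h0.1 s hs).2.1.1) (dth_mem hC hB h0 ht) (h0.2.2.1 t ht) hT1 (K := B)
      (fun s hs => by filter_upwards [hBd s hs] with x hx using hx.2)
      ((ctW_r hC hB h0 ht).mono_left (nhdsWithin_mono _ diff_subset)) (hC.memLp _ hr') ?_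
    · rw [S1_eq hC hB h0 hh ht]
      refine key.congr (fun s hs => ?_) ?_
      · unfold Calc.SS Sf
        rw [add_sub_cancel]
      · unfold Calc.SS Sf
        rw [add_sub_cancel]
    · refine tendsto_of_tendsto_of_tendsto_of_le_of_le' tendsto_const_nhds hdr ?_ ?_
      · exact Eventually.of_forall fun s => I_sq_nonneg _
      · filter_upwards [self_mem_nhdsWithin] with s hs
        have e : rh ε φ u s - 1 - (rh ε φ u t - 1) = rh ε φ u s - rh ε φ u t := by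
          rw [sub_sub_sub_cancel_right]
        rw [e]
        refine hD.I_sq_le_nrm2 (hD.sub_mem (hC.smul_mem _ _ ?_) hr')
        rw [← e]
        exact hD.sub_mem (hT1 s hs.1).1 (hT1 t ht).1
  · refine continuousOn_of_seqC hC hB hR h0 fun t ht ns hns hS => ?_
    have hch : C.Cv (fun _ : ℕ => h) h := by
      refine ⟨fun _ => hh.1, hh.1, ?_, ?_, ⟨0, fun n => ?_⟩, ?_⟩
      · simp only [sub_self]
        rw [nrm2_zero hD]
        exact tendsto_const_nhds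
      · simp only [sub_self, ne_eq, OfNat.ofNat_ne_zero, not_false_eq_true, zero_pow, I_zero]
        exact tendsto_const_nhds
      · rw [sub_self, hD.Γ_zero_left hD.zero_mem]
        filter_upwards [zero_ae (M := M) (m := m)] with x hx
        exact hx.le
      · simp only [sub_self]
        rw [hD.Γ_zero_left hD.zero_mem]
        filter_upwards [zero_ae (M := M) (m := m)] with x hx
        rw [hx]
        exact tendsto_const_nhds
    have u1 := hC.Cv_U hB hG hU hch hS.th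
    have u2 := hC.Cv_U hB hG hU hS.th hch
    have l1 := TE.ip hS.rhb u1 u2
    have l2 := TE.ip hS.rhb u2 u2
    have g1 : T2 (fun n => C.Γ (th φ u (ns n)) (th φ u (ns n))) (C.Γ (th φ u t) (th φ u t)) :=
      hD.TW_T2 (hC.Cv_Γ hB hS.th hS.th)
    have g2 : T2 (fun n => C.Γ h (th φ u (ns n))) (C.Γ h (th φ u t)) :=
      hD.TW_T2 (hC.Cv_Γ hB hch hS.th)
    have g3 : T2 (fun n => C.Γ h h) (C.Γ h h) := T2.const (hC.memLp _ (hC.Γ_mem hB hh.1 hh.1).1)
    have l3 := (hS.rhb.mul g3).mul_lim g1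
    have l4 := (hS.rhb.mul g2).mul_lim g2
    have hmem : ∀ s ∈ Icc a b, MemLp (rh ε φ u s) ∞ m := fun s hs =>
      mem_top_iff.2 ⟨B, by filter_upwards [hBd s hs] with x hx using hx.1⟩
    have e : ∀ s ∈ Icc a b, C.FR U κ ε φ u h s
        = 2 * I (rh ε φ u s * ipE m (U h (th φ u s)) (U (th φ u s) h))
          - I (rh ε φ u s * ipE m (U (th φ u s) h) (U (th φ u s) h))
          - κ * (I (rh ε φ u s * C.Γ h h * C.Γ (th φ u s) (th φ u s))
            - I (rh ε φ u s * C.Γ h (th φ u s) * C.Γ h (th φ u s))) := by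
      intro s hs
      have hθ := (h0.1 s hs).2.1
      have m1 := mem_mul_22 (mem_mul_top (hmem s hs) g3.mem') (hC.memLp _ (hC.Γ_mem hB hθ.1 hθ.1).1)
      have m2 := mem_mul_22 (mem_mul_top (hmem s hs) (hC.memLp _ (hC.Γ_mem hB hh.1 hθ.1).1))
        (hC.memLp _ (hC.Γ_mem hB hh.1 hθ.1).1)
      unfold Calc.FR
      rw [← I_sub m1 m2]
      congr 3
      ring
    rw [e t ht]
    refine (((l1.const_mul 2).sub l2).sub ((l3.sub l4).const_mul κ)).congr fun n => ?_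
    rw [e _ (hns n)]

end Vale.Agent.P233.H133
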